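import Vale.Agent.P329.H259.Base
import Mathlib.GroupTheory.Subgroup.Simple
import Mathlib.GroupTheory.QuotientGroup.Basic

/-!
# P329: words with equal syntactic value and equal length, and their values in a group
-/

namespace Vale.Agent.P329.R2.H446

open Vale.Agent.P329.H259

variable {α M G : Type} [Monoid M] [Group G]

/-- Quotients of the group values of words of equal length with the same value in `M`. -/
def DE (η : List α → M) (P : List α → G) : Set G :=
  {x | ∃ u v : List α, η u = η v ∧ u.length = v.length ∧ x = P u * (P v)⁻¹}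

/-- The subgroup generated by `DE`. -/
def DR (η : List α → M) (P : List α → G) : Subgroup G := Subgroup.closure (DE η P)

theorem DE_conj {η : List α → M} {P : List α → G} (hη : Hom η) (hP : Hom P)
    (hs : Function.Surjective P) {x : G} (hx : x ∈ DE η P) (g : G) : g * x * g⁻¹ ∈ DE η P := by
  obtain ⟨u, v, h1, h2, rfl⟩ := hx
  obtain ⟨w, rfl⟩ := hs g
  refine ⟨w ++ u, w ++ v, by rw [hη.2, hη.2, h1], by simp [h2], ?_⟩
  rw [hP.2, hP.2]
  group

theorem DR_normal {η : List α → M} {P : List α → G} (hη : Hom η) (hP : Hom P)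
    (hs : Function.Surjective P) : (DR η P).Normal := by
  refine ⟨fun x hx g => ?_⟩
  unfold DR at hx ⊢
  induction hx using Subgroup.closure_induction with
  | mem x hx => exact Subgroup.subset_closure (DE_conj hη hP hs hx g)
  | one => simp
  | mul x y _ _ hx hy =>
    have : g * (x * y) * g⁻¹ = (g * x * g⁻¹) * (g * y * g⁻¹) := by group
    rw [this]
    exact mul_mem hx hy
  | inv x _ hx =>
    have : g * x⁻¹ * g⁻¹ = (g * x * g⁻¹)⁻¹ := by group
    rw [this]
    exact inv_mem hx

omit [Monoid M] in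
theorem DR_mem {η : List α → M} {P : List α → G} {u v : List α} (h : η u = η v)
    (hl : u.length = v.length) : P u * (P v)⁻¹ ∈ DR η P :=
  Subgroup.subset_closure ⟨u, v, h, hl, rfl⟩

/-- Without the length condition: the difference is central modulo `DR`. -/
theorem DR_central {η : List α → M} {P : List α → G} (hη : Hom η) (hP : Hom P)
    (hs : Function.Surjective P) {u v : List α} (h : η u = η v) (k : G) :
    (P u * (P v)⁻¹) * k * (P u * (P v)⁻¹)⁻¹ * k⁻¹ ∈ DR η P := by
  have hN := DR_normal hη hP hs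
  have key : ∀ c : G, P u * c * P v * (P v * c * P u)⁻¹ ∈ DR η P := by
    intro c
    obtain ⟨w, rfl⟩ := hs c
    have h1 : η (u ++ w ++ v) = η (v ++ w ++ u) := by
      rw [hη.2, hη.2, hη.2, hη.2, h]
    have h2 : (u ++ w ++ v).length = (v ++ w ++ u).length := by
      simp only [List.length_append]; omega
    have h3 := DR_mem (P := P) h1 h2
    rwa [hP.2, hP.2, hP.2, hP.2] at h3
  have key' : ∀ c : G, ((P u * c * P v : G) : G ⧸ DR η P) = ((P v * c * P u : G) : G ⧸ DR η P) := by
    intro c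
    rw [QuotientGroup.eq_iff_div_mem, div_eq_mul_inv]
    exact key c
  set a : G ⧸ DR η P := ((P u : G) : G ⧸ DR η P) with ha
  set b : G ⧸ DR η P := ((P v : G) : G ⧸ DR η P) with hb
  have e1 : ∀ c : G, a * (c : G ⧸ DR η P) * b = b * (c : G ⧸ DR η P) * a := by
    intro c
    have := key' c
    simpa only [QuotientGroup.mk_mul] using this
  have e2 : a * b = b * a := by
    have := e1 1
    simpa using this
  have e3 : a * b⁻¹ = b⁻¹ * a := by
    rw [mul_inv_eq_iff_eq_mul, mul_assoc, e2]; group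
  have e4 : (a * b⁻¹) * (k : G ⧸ DR η P) = (k : G ⧸ DR η P) * (a * b⁻¹) := by
    have h1 := e1 k
    have h2 : b⁻¹ * (a * (k : G ⧸ DR η P) * b) * b⁻¹ = b⁻¹ * (b * (k : G ⧸ DR η P) * a) * b⁻¹ := by
      rw [h1]
    have h3 : b⁻¹ * (a * (k : G ⧸ DR η P) * b) * b⁻¹ = (b⁻¹ * a) * (k : G ⧸ DR η P) := by group
    have h4 : b⁻¹ * (b * (k : G ⧸ DR η P) * a) * b⁻¹ = (k : G ⧸ DR η P) * (a * b⁻¹) := by group
    rw [h3, h4, ← e3] at h2
    exact h2
  rw [← QuotientGroup.eq_one_iff]
  have h5 : (((P u * (P v)⁻¹) * k * (P u * (P v)⁻¹)⁻¹ * k⁻¹ : G) : G ⧸ DR η P) =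
      (a * b⁻¹) * (k : G ⧸ DR η P) * (a * b⁻¹)⁻¹ * (k : G ⧸ DR η P)⁻¹ := by
    simp only [QuotientGroup.mk_mul, QuotientGroup.mk_inv, ha, hb]
  rw [h5, e4]
  group

theorem P_pow {P : List α → G} (hP : Hom P) (v : List α) (n : ℕ) : P (pw v n) = P v ^ n :=
  hP.pw v n

/-- The value in `M` and the length modulo some `N` determine the coset of `DR`. -/
theorem DR_mod [Finite M] [Finite G] [Nonempty α] {η : List α → M} {P : List α → G}
    (hη : Hom η) (hP : Hom P) : ∃ N : ℕ, 0 < N ∧ ∀ u v : List α, η u = η v →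
      u.length ≡ v.length [MOD N] → P u * (P v)⁻¹ ∈ DR η P := by
  obtain ⟨a⟩ := ‹Nonempty α›
  obtain ⟨i, j, hij, he⟩ := Finite.exists_ne_map_eq_of_infinite (fun n : ℕ => η (pw [a] n))
  have hmain : ∀ i j : ℕ, i < j → η (pw [a] i) = η (pw [a] j) → ∃ N : ℕ, 0 < N ∧
      ∀ u v : List α, η u = η v →
      u.length ≡ v.length [MOD N] → P u * (P v)⁻¹ ∈ DR η P := by
    intro i j hij he
    refine ⟨Nat.card G * (j - i), Nat.mul_pos Nat.card_pos (by omega), ?_⟩
    -- the case `v` shorter
    have key : ∀ (u v : List α) (k : ℕ), η u = η v →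
        u.length = v.length + Nat.card G * (j - i) * k → P u * (P v)⁻¹ ∈ DR η P := by
      intro u v k h hl
      have h1 : η (u ++ pw (pw [a] i) (Nat.card G * k)) =
          η (v ++ pw (pw [a] j) (Nat.card G * k)) := by
        rw [hη.2, hη.2, hη.pw (pw [a] i), hη.pw (pw [a] j), h, he]
      have h2 : (u ++ pw (pw [a] i) (Nat.card G * k)).length =
          (v ++ pw (pw [a] j) (Nat.card G * k)).length := by
        rw [List.length_append, List.length_append, pw_length, pw_length, pw_length, pw_length, hl]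
        obtain ⟨d, rfl⟩ : ∃ d, j = i + d := ⟨j - i, by omega⟩
        have : i + d - i = d := by omega
        rw [this, List.length_singleton]
        ring
      have h3 := DR_mem (P := P) h1 h2
      rw [hP.2, hP.2, P_pow hP (pw [a] i), P_pow hP (pw [a] j), pow_mul, pow_mul, pow_card_eq_one', one_pow,
        pow_card_eq_one', one_pow, mul_one, mul_one] at h3
      exact h3
    intro u v h hmod
    rcases le_total v.length u.length with hle | hle
    · obtain ⟨k, hk⟩ := (Nat.modEq_iff_dvd' hle).1 hmod.symm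
      exact key u v k h (by omega)
    · obtain ⟨k, hk⟩ := (Nat.modEq_iff_dvd' hle).1 hmod
      have := inv_mem (key v u k h.symm (by omega))
      have h4 : (P v * (P u)⁻¹)⁻¹ = P u * (P v)⁻¹ := by group
      rwa [h4] at this
  rcases Nat.lt_or_gt_of_ne hij with hlt | hlt
  · exact hmain i j hlt he
  · exact hmain j i hlt he.symm

/-- Values of words of length `n` with given value in `M`. -/
def DF (η : List α → M) (P : List α → G) (n : ℕ) (m : M) : Set G :=
  {x | ∃ w : List α, w.length = n ∧ η w = m ∧ P w = x}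

/-- Some `DF` contains a full coset of `DR`, at a positive length. -/
theorem exists_coset [Finite G] [Nonempty α] {η : List α → M} {P : List α → G} (hη : Hom η)
    (hP : Hom P) : ∃ (l : ℕ) (m₀ : M) (x₀ : G), 0 < l ∧
      ∀ x : G, x₀⁻¹ * x ∈ DR η P → x ∈ DF η P l m₀ := by
  let s : Set ℕ := Set.range (fun p : ℕ × M => (DF η P (p.1 + 1) p.2).ncard)
  have hbdd : BddAbove s := by
    refine ⟨Nat.card G, ?_⟩
    rintro _ ⟨p, rfl⟩
    exact Set.ncard_le_card _
  have hne : s.Nonempty := ⟨_, ⟨(0, 1), rfl⟩⟩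
  obtain ⟨⟨n, m₀⟩, hp⟩ := Nat.sSup_mem hne hbdd
  have hmax : ∀ k m, (DF η P (k + 1) m).ncard ≤ (DF η P (n + 1) m₀).ncard := by
    intro k m
    have h1 : (DF η P (k + 1) m).ncard ∈ s := ⟨(k, m), rfl⟩
    have h2 := le_csSup hbdd h1
    rw [← hp] at h2
    exact h2
  have hnon : (DF η P (n + 1) m₀).Nonempty := by
    obtain ⟨a⟩ := ‹Nonempty α›
    have h1 : 1 ≤ (DF η P (0 + 1) (η [a])).ncard := by
      exact (Set.ncard_pos (Set.toFinite _)).2 ⟨P [a], [a], rfl, rfl, rfl⟩
    have h2 := le_trans h1 (hmax 0 (η [a]))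
    exact (Set.ncard_pos (Set.toFinite _)).1 h2
  have htr : ∀ w : List α, (fun x => x * P w) '' (DF η P (n + 1) m₀) =
      DF η P (n + 1 + w.length) (m₀ * η w) := by
    intro w
    refine Set.eq_of_subset_of_ncard_le ?_ ?_ (Set.toFinite _)
    · rintro _ ⟨_, ⟨z, h1, h2, rfl⟩, rfl⟩
      exact ⟨z ++ w, by simp [h1], by rw [hη.2, h2], by rw [hP.2]⟩
    · rw [Set.ncard_image_of_injective _ (mul_left_injective (P w))]
      have : n + 1 + w.length = (n + w.length) + 1 := by omega
      rw [this]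
      exact hmax _ _
  have hstep : ∀ e ∈ DE η P, ∀ x ∈ DF η P (n + 1) m₀, x * e ∈ DF η P (n + 1) m₀ := by
    rintro _ ⟨u, v, h1, h2, rfl⟩ x hx
    have h3 : x * P u ∈ (fun x => x * P v) '' (DF η P (n + 1) m₀) := by
      rw [htr v, ← h1, ← h2, ← htr u]
      exact ⟨x, hx, rfl⟩
    obtain ⟨y, hy, h4⟩ := h3
    have h5 : x * (P u * (P v)⁻¹) = y := by
      rw [← mul_assoc, mul_inv_eq_iff_eq_mul]
      exact h4.symm
    rw [h5]
    exact hy
  have hinv : ∀ e ∈ DE η P, e⁻¹ ∈ DE η P := by
    rintro _ ⟨u, v, h1, h2, rfl⟩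
    exact ⟨v, u, h1.symm, h2.symm, by group⟩
  let K : Subgroup G :=
    { carrier := {r | ∀ x, x ∈ DF η P (n + 1) m₀ ↔ x * r ∈ DF η P (n + 1) m₀}
      mul_mem' := by
        intro a b ha hb x
        rw [ha x, hb (x * a), mul_assoc]
      one_mem' := by intro x; rw [mul_one]
      inv_mem' := by
        intro a ha x
        rw [ha (x * a⁻¹), inv_mul_cancel_right] }
  have hK : DR η P ≤ K := by
    refine (Subgroup.closure_le K).2 ?_
    intro e he x
    constructor
    · exact hstep e he x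
    · intro hx
      have := hstep _ (hinv e he) _ hx
      rwa [mul_inv_cancel_right] at this
  obtain ⟨x₀, hx₀⟩ := hnon
  refine ⟨n + 1, m₀, x₀, Nat.succ_pos n, ?_⟩
  intro x hx
  have := (hK hx x₀).1 hx₀
  rwa [mul_inv_cancel_left] at this

end Vale.Agent.P329.R2.H446
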