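import Vale.Agent.P329.R2.H446.Main
import Mathlib.Data.Set.Finite.List

/-!
# P329: the easy direction over the alphabet of all elements
-/

namespace Vale.Agent.P329.R2.H446

open Vale.Agent.P329 (GRE)
open Vale.Agent.P329.H259 Finset Filter Topology

/-- Over the alphabet of all elements, at least `|G| ^ n` words of length `n + 1` have
product one. -/
theorem tot_ge {G : Type} [Group G] [Finite G] (n : ℕ) :
    Nat.card G ^ n ≤ tot {w : List G | (w.map id).prod ∈ ({1} : Set G)} (n + 1) := by
  have := Fintype.ofFinite G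
  have h1 : (words G n).card = Nat.card G ^ n := by
    have := card_words (α := G) n
    rw [Nat.card_eq_fintype_card]
    exact_mod_cast this
  have hfin : {w : List G | w.length = n + 1 ∧
      w ∈ {w : List G | (w.map id).prod ∈ ({1} : Set G)}}.Finite :=
    (List.finite_length_eq G (n + 1)).subset fun w hw => hw.1
  unfold tot
  rw [← h1, Set.ncard_eq_toFinset_card _ hfin]
  refine Finset.card_le_card_of_injOn (fun w => (w.prod)⁻¹ :: w) ?_ ?_
  · intro w hw
    have hw' : w.length = n := mem_words.1 hw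
    simp [hw']
  · intro w _ w' _ h
    exact (List.cons.inj h).2

/-- Over the alphabet of all elements of a nontrivial finite group, the preimage of `1` is not
exponentially independent of the product map. -/
theorem not_independent {G : Type} [Group G] [Finite G] (hG : 1 < Nat.card G) :
    ¬ Independent (id : G → G) {w : List G | (w.map id).prod ∈ ({1} : Set G)} := by
  intro h
  obtain ⟨C, ρ, hC, hρ0, hρ1, hb⟩ := h 1
  have hc : cnt (id : G → G) {w : List G | (w.map id).prod ∈ ({1} : Set G)} =
      fun n g => cnt (id : G → G) {w : List G | (w.map id).prod ∈ ({1} : Set G)} n g := rfl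
  have hct : ∀ n, cnt (id : G → G) {w : List G | (w.map id).prod ∈ ({1} : Set G)} n 1 =
      tot {w : List G | (w.map id).prod ∈ ({1} : Set G)} n := by
    intro n
    unfold cnt tot
    congr 1
    ext w
    constructor
    · rintro ⟨a, b, -⟩; exact ⟨a, b⟩
    · rintro ⟨a, b⟩; exact ⟨a, b, b⟩
  have hG' : (1 : ℝ) < (Nat.card G : ℝ) := by exact_mod_cast hG
  have hG0 : (0 : ℝ) < (Nat.card G : ℝ) := by linarith
  have key : ∀ n : ℕ, 1 - 1 / (Nat.card G : ℝ) ≤ C * ρ ^ (n + 1) * (Nat.card G : ℝ) := by
    intro n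
    have h1 := hb (n + 1)
    have ht : ((Nat.card G : ℝ)) ^ n ≤
        (tot {w : List G | (w.map id).prod ∈ ({1} : Set G)} (n + 1) : ℝ) := by
      exact_mod_cast tot_ge (G := G) n
    simp only [hct] at h1
    have h2 := (le_abs_self _).trans h1
    have hp : (0 : ℝ) < (Nat.card G : ℝ) ^ n := pow_pos hG0 n
    have h3 : (Nat.card G : ℝ) ^ n * (1 - 1 / (Nat.card G : ℝ)) ≤
        (Nat.card G : ℝ) ^ n * (C * ρ ^ (n + 1) * (Nat.card G : ℝ)) := by
      have hx : (0 : ℝ) ≤ 1 - 1 / (Nat.card G : ℝ) := by
        rw [sub_nonneg, div_le_one hG0]; exact hG'.le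
      calc (Nat.card G : ℝ) ^ n * (1 - 1 / (Nat.card G : ℝ))
          ≤ (tot {w : List G | (w.map id).prod ∈ ({1} : Set G)} (n + 1) : ℝ) *
            (1 - 1 / (Nat.card G : ℝ)) := mul_le_mul_of_nonneg_right ht hx
        _ = (tot {w : List G | (w.map id).prod ∈ ({1} : Set G)} (n + 1) : ℝ) -
            (tot {w : List G | (w.map id).prod ∈ ({1} : Set G)} (n + 1) : ℝ) /
              (Nat.card G : ℝ) := by ring
        _ ≤ C * ρ ^ (n + 1) * (Nat.card G : ℝ) ^ (n + 1) := h2
        _ = (Nat.card G : ℝ) ^ n * (C * ρ ^ (n + 1) * (Nat.card G : ℝ)) := by ring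
    exact le_of_mul_le_mul_left h3 hp
  have hlim : Tendsto (fun n : ℕ => C * ρ ^ (n + 1) * (Nat.card G : ℝ)) atTop (𝓝 0) := by
    have h0 := (tendsto_pow_atTop_nhds_zero_of_lt_one hρ0 hρ1).comp (tendsto_add_atTop_nat 1)
    have h1 := (h0.const_mul C).mul_const (Nat.card G : ℝ)
    simpa using h1
  have hle := ge_of_tendsto' hlim key
  have : 1 / (Nat.card G : ℝ) < 1 := by
    rw [div_lt_one hG0]; exact hG'
  linarith

/-- The easy direction: bounded height over the alternating groups gives correlated languages. -/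
theorem corr_of_all (h : ℕ) (H : GroupHeight h) (n : ℕ) (hn : 5 ≤ n) :
    ∃ e : GRE (alternatingGroup (Fin n)), e.height ≤ h ∧
      ¬ Independent (id : alternatingGroup (Fin n) → alternatingGroup (Fin n)) e.lang := by
  obtain ⟨e, he, hl⟩ := H (alternatingGroup (Fin n)) (alternatingGroup (Fin n)) id {1}
  refine ⟨e, he, ?_⟩
  rw [hl]
  apply not_independent
  have : Nontrivial (Fin n) := Fin.nontrivial_iff_two_le.2 (by omega)
  have h2 : 2 * Nat.card (alternatingGroup (Fin n)) = Nat.factorial n := by
    rw [Nat.card_eq_fintype_card, two_mul_card_alternatingGroup, Fintype.card_perm,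
      Fintype.card_fin]
  have h3 : Nat.factorial 5 ≤ Nat.factorial n := Nat.factorial_le hn
  have h4 : Nat.factorial 5 = 120 := by decide
  omega

end Vale.Agent.P329.R2.H446
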