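import Vale.Agent.P329.R2.H446.Defs
import Vale.Agent.P329.R2.H446.Alg
import Mathlib.Analysis.SpecialFunctions.Pow.Real

/-!
# P329: the counting argument
-/

namespace Vale.Agent.P329.R2.H446

open Vale.Agent.P329.H259 Finset

theorem cons_inj' (α : Type) : Function.Injective (fun p : α × List α => p.1 :: p.2) := by
  rintro ⟨a, u⟩ ⟨b, v⟩ h
  simp only [List.cons.injEq] at h
  rw [h.1, h.2]

/-- The embedding `(a, w) ↦ a :: w`. -/
def consEmb (α : Type) : α × List α ↪ List α := ⟨fun p => p.1 :: p.2, cons_inj' α⟩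

/-- All words of length `n`. -/
def words (α : Type) [Fintype α] : ℕ → Finset (List α)
  | 0 => {[]}
  | n + 1 => (Finset.univ ×ˢ words α n).map (consEmb α)

theorem mem_words {α : Type} [Fintype α] {n : ℕ} {w : List α} :
    w ∈ words α n ↔ w.length = n := by
  induction n generalizing w with
  | zero => simp [words]
  | succ n ih =>
    rw [words, Finset.mem_map]
    constructor
    · rintro ⟨⟨a, u⟩, h, rfl⟩
      rw [Finset.mem_product] at h
      change (a :: u).length = n + 1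
      rw [List.length_cons, ih.1 h.2]
    · intro h
      cases w with
      | nil => simp at h
      | cons a u =>
        refine ⟨(a, u), ?_, rfl⟩
        rw [Finset.mem_product]
        exact ⟨Finset.mem_univ a, ih.2 (by simpa using h)⟩

theorem sum_words_succ {α : Type} [Fintype α] (n : ℕ) (F : List α → ℝ) :
    ∑ w ∈ words α (n + 1), F w = ∑ a : α, ∑ w ∈ words α n, F (a :: w) := by
  rw [words, Finset.sum_map, Finset.sum_product]
  rfl

theorem sum_words_add {α : Type} [Fintype α] (k n : ℕ) (F : List α → ℝ) :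
    ∑ w ∈ words α (k + n), F w = ∑ u ∈ words α k, ∑ w ∈ words α n, F (u ++ w) := by
  induction k generalizing F with
  | zero => simp [words]
  | succ k ih =>
    have : k + 1 + n = (k + n) + 1 := by omega
    rw [this, sum_words_succ, sum_words_succ]
    refine Finset.sum_congr rfl fun a _ => ?_
    rw [ih]
    rfl

theorem card_words {α : Type} [Fintype α] (n : ℕ) :
    ((words α n).card : ℝ) = (Fintype.card α : ℝ) ^ n := by
  have h : ∀ n, ∑ w ∈ words α n, (1 : ℝ) = (Fintype.card α : ℝ) ^ n := by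
    intro n
    induction n with
    | zero => simp [words]
    | succ n ih =>
      rw [sum_words_succ]
      simp only [ih, Finset.sum_const, Finset.card_univ, nsmul_eq_mul]
      ring
  rw [← h n]
  simp

section

variable {α M G : Type} [Fintype α] [Monoid M] [Group G] [Fintype G]

/-- The averaging operator (sum over all words of length `n`). -/
def opS (η : List α → M) (P : List α → G) (n : ℕ) (φ : M → G → ℝ) (m : M) (g : G) : ℝ :=
  ∑ w ∈ words α n, φ (m * η w) (g * P w)

omit [Fintype G] in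
theorem opS_add {η : List α → M} {P : List α → G} (hη : Hom η) (hP : Hom P) (k n : ℕ)
    (φ : M → G → ℝ) : opS η P (k + n) φ = opS η P k (opS η P n φ) := by
  funext m g
  unfold opS
  rw [sum_words_add]
  refine Finset.sum_congr rfl fun u _ => Finset.sum_congr rfl fun w _ => ?_
  rw [hη.2, hP.2, mul_assoc, mul_assoc]

open Classical in
/-- Indicator function of a subgroup. -/
noncomputable def ind (R : Subgroup G) (x : G) : ℝ := if x ∈ R then 1 else 0

omit [Fintype G] in
theorem ind_congr {R : Subgroup G} {x y : G} (h : x ∈ R ↔ y ∈ R) : ind R x = ind R y := by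
  unfold ind
  by_cases hx : x ∈ R
  · rw [if_pos hx, if_pos (h.1 hx)]
  · rw [if_neg hx, if_neg (fun hy => hx (h.2 hy))]

/-- Zero sum on every coset of `R`. -/
def ZS (R : Subgroup G) (φ : M → G → ℝ) : Prop :=
  ∀ m g, ∑ x : G, ind R (g⁻¹ * x) * φ m x = 0

theorem ZS.opS {η : List α → M} {P : List α → G} {R : Subgroup G} (hR : R.Normal)
    {φ : M → G → ℝ} (hφ : ZS R φ) (n : ℕ) : ZS R (opS η P n φ) := by
  intro m g
  unfold H446.opS
  have h1 : ∀ x : G, ind R (g⁻¹ * x) * ∑ w ∈ words α n, φ (m * η w) (x * P w) =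
      ∑ w ∈ words α n, ind R (g⁻¹ * x) * φ (m * η w) (x * P w) := fun x => Finset.mul_sum _ _ _
  rw [Finset.sum_congr rfl (fun x _ => h1 x), Finset.sum_comm]
  refine Finset.sum_eq_zero fun w _ => ?_
  have h2 := hφ (m * η w) (g * P w)
  rw [← Equiv.sum_comp (Equiv.mulRight (P w))] at h2
  rw [← h2]
  refine Finset.sum_congr rfl fun x _ => ?_
  rw [Equiv.coe_mulRight]
  have h3 : g⁻¹ * x ∈ R ↔ (g * P w)⁻¹ * (x * P w) ∈ R := by
    constructor
    · intro h
      have := hR.conj_mem _ h (P w)⁻¹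
      have h4 : (P w)⁻¹ * (g⁻¹ * x) * (P w)⁻¹⁻¹ = (g * P w)⁻¹ * (x * P w) := by group
      rwa [h4] at this
    · intro h
      have := hR.conj_mem _ h (P w)
      have h4 : P w * ((g * P w)⁻¹ * (x * P w)) * (P w)⁻¹ = g⁻¹ * x := by group
      rwa [h4] at this
  rw [ind_congr h3]

omit [Fintype G] in
theorem opS_le {η : List α → M} {P : List α → G} {φ : M → G → ℝ} {B : ℝ}
    (hB : ∀ m g, |φ m g| ≤ B) (n : ℕ) (m : M) (g : G) :
    |opS η P n φ m g| ≤ (Fintype.card α : ℝ) ^ n * B := by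
  unfold opS
  refine (Finset.abs_sum_le_sum_abs _ _).trans ?_
  refine (Finset.sum_le_sum (fun w _ => hB (m * η w) (g * P w))).trans ?_
  rw [Finset.sum_const, nsmul_eq_mul, card_words]

theorem opS_gain {η : List α → M} {P : List α → G} {R : Subgroup G} {φ : M → G → ℝ} {B : ℝ}
    (hφ : ZS R φ) (hB : ∀ m g, |φ m g| ≤ B) (l : ℕ) (m₀ : M) (x₀ : G)
    (hF : ∀ x : G, x₀⁻¹ * x ∈ R → x ∈ DF η P l m₀) (m : M) (g : G) :
    |opS η P l φ m g| ≤ ((Fintype.card α : ℝ) ^ l - 1) * B := by
  classical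
  choose! wd h1 h2 h3 using hF
  set D : Finset G := Finset.univ.filter (fun x => x₀⁻¹ * x ∈ R) with hD
  have hinj : Set.InjOn wd (D : Set G) := by
    intro x hx y hy hxy
    have hx' : x₀⁻¹ * x ∈ R := by simpa [hD] using hx
    have hy' : x₀⁻¹ * y ∈ R := by simpa [hD] using hy
    rw [← h3 x hx', ← h3 y hy', hxy]
  set W : Finset (List α) := D.image wd with hW
  have hWs : W ⊆ words α l := by
    intro w hw
    rw [hW, Finset.mem_image] at hw
    obtain ⟨x, hx, rfl⟩ := hw
    have hx' : x₀⁻¹ * x ∈ R := by simpa [hD] using hx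
    exact mem_words.2 (h1 x hx')
  have hcard : 1 ≤ W.card := by
    rw [hW, Finset.card_image_of_injOn hinj]
    refine Finset.card_pos.2 ⟨x₀, ?_⟩
    simp [hD]
  have hzero : ∑ w ∈ W, φ (m * η w) (g * P w) = 0 := by
    rw [hW, Finset.sum_image hinj]
    have h4 : ∑ x ∈ D, φ (m * η (wd x)) (g * P (wd x)) = ∑ x ∈ D, φ (m * m₀) (g * x) := by
      refine Finset.sum_congr rfl fun x hx => ?_
      have hx' : x₀⁻¹ * x ∈ R := by simpa [hD] using hx
      rw [h2 x hx', h3 x hx']
    rw [h4, hD, Finset.sum_filter]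
    have h5 := hφ (m * m₀) (g * x₀)
    rw [← Equiv.sum_comp (Equiv.mulLeft g)] at h5
    refine Eq.trans (Finset.sum_congr rfl fun x _ => ?_) h5
    rw [Equiv.coe_mulLeft]
    have h6 : (g * x₀)⁻¹ * (g * x) = x₀⁻¹ * x := by group
    rw [h6, ind]
    by_cases h7 : x₀⁻¹ * x ∈ R
    · rw [if_pos h7, if_pos h7, one_mul]
    · rw [if_neg h7, if_neg h7, zero_mul]
  unfold opS
  rw [← Finset.sum_sdiff hWs, hzero, add_zero]
  refine (Finset.abs_sum_le_sum_abs _ _).trans ?_
  refine (Finset.sum_le_sum (fun w _ => hB (m * η w) (g * P w))).trans ?_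
  rw [Finset.sum_const, nsmul_eq_mul, Finset.card_sdiff_of_subset hWs,
    Nat.cast_sub (Finset.card_le_card hWs), card_words]
  have hB0 : 0 ≤ B := le_trans (abs_nonneg _) (hB 1 1)
  have : (1 : ℝ) ≤ (W.card : ℝ) := by exact_mod_cast hcard
  nlinarith

theorem opS_iter {η : List α → M} {P : List α → G} (hη : Hom η) (hP : Hom P)
    {R : Subgroup G} (hR : R.Normal) (l : ℕ) (m₀ : M) (x₀ : G)
    (hF : ∀ x : G, x₀⁻¹ * x ∈ R → x ∈ DF η P l m₀) {φ : M → G → ℝ} (hφ : ZS R φ)
    (hB : ∀ m g, |φ m g| ≤ 1) (j : ℕ) :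
    ∀ m g, |opS η P (j * l) φ m g| ≤ ((Fintype.card α : ℝ) ^ l - 1) ^ j := by
  induction j with
  | zero =>
    intro m g
    simp only [Nat.zero_mul, pow_zero]
    have := opS_le (η := η) (P := P) hB 0 m g
    simpa using this
  | succ j ih =>
    intro m g
    have h1 : (j + 1) * l = l + j * l := by ring
    rw [h1, opS_add hη hP, pow_succ']
    exact opS_gain (hφ.opS hR _) ih l m₀ x₀ hF m g

/-- The bound for words of length `n`. -/
theorem opS_bound [Nonempty α] {η : List α → M} {P : List α → G} (hη : Hom η) (hP : Hom P)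
    {R : Subgroup G} (hR : R.Normal) (l : ℕ) (hl : 0 < l) (m₀ : M) (x₀ : G)
    (hF : ∀ x : G, x₀⁻¹ * x ∈ R → x ∈ DF η P l m₀) :
    ∃ C ρ : ℝ, 0 ≤ C ∧ 0 ≤ ρ ∧ ρ < 1 ∧ ∀ φ : M → G → ℝ, ZS R φ → (∀ m g, |φ m g| ≤ 1) →
      ∀ (n : ℕ) (m : M) (g : G),
        |opS η P n φ m g| ≤ C * ρ ^ n * (Fintype.card α : ℝ) ^ n := by
  have hA : (1 : ℝ) ≤ (Fintype.card α : ℝ) := by
    exact_mod_cast Fintype.card_pos
  set A : ℝ := (Fintype.card α : ℝ) with hAdef
  have hAl : (1 : ℝ) ≤ A ^ l := one_le_pow₀ hA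
  have hA0 : 0 < A := by linarith
  have hAl0 : 0 < A ^ l := by linarith
  set q : ℝ := max (1 / 2) ((A ^ l - 1) / A ^ l) with hq
  have hq1 : q < 1 := by
    refine max_lt (by norm_num) ?_
    rw [div_lt_one hAl0]
    linarith
  have hq0 : 0 < q := lt_of_lt_of_le (by norm_num) (le_max_left _ _)
  have hl0 : (l : ℝ) ≠ 0 := by
    have : l ≠ 0 := by omega
    exact_mod_cast this
  set ρ : ℝ := q ^ ((l : ℝ)⁻¹) with hρ
  have hρ0 : 0 < ρ := Real.rpow_pos_of_pos hq0 _
  have hρ1 : ρ < 1 := Real.rpow_lt_one hq0.le hq1 (by positivity)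
  have hρl : ρ ^ l = q := by
    rw [hρ, ← Real.rpow_natCast, ← Real.rpow_mul hq0.le, inv_mul_cancel₀ hl0, Real.rpow_one]
  refine ⟨q⁻¹, ρ, by positivity, hρ0.le, hρ1, ?_⟩
  intro φ hφ hB n m g
  -- `n = r + j * l`
  obtain ⟨j, r, hr, rfl⟩ : ∃ j r, r < l ∧ n = r + j * l :=
    ⟨n / l, n % l, Nat.mod_lt _ hl, by rw [Nat.mul_comm]; exact (Nat.mod_add_div n l).symm⟩
  rw [opS_add hη hP]
  have h1 := opS_iter hη hP hR l m₀ x₀ hF hφ hB j
  have h2 := opS_le (η := η) (P := P) h1 r m g
  refine h2.trans ?_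
  have h3 : A ^ l - 1 ≤ q * A ^ l := by
    have : (A ^ l - 1) / A ^ l ≤ q := le_max_right _ _
    rwa [div_le_iff₀ hAl0] at this
  have h4 : (A ^ l - 1) ^ j ≤ q ^ j * (A ^ l) ^ j := by
    rw [← mul_pow]
    exact pow_le_pow_left₀ (by linarith) h3 j
  have h5 : A ^ r * (A ^ l - 1) ^ j ≤ A ^ r * (q ^ j * (A ^ l) ^ j) :=
    mul_le_mul_of_nonneg_left h4 (by positivity)
  refine h5.trans ?_
  have h6 : A ^ r * (q ^ j * (A ^ l) ^ j) = q ^ j * A ^ (r + j * l) := by
    rw [pow_add, mul_comm j l, pow_mul]; ring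
  rw [h6]
  refine mul_le_mul_of_nonneg_right ?_ (by positivity)
  -- `q ^ j ≤ q⁻¹ * ρ ^ (r + j * l)`
  have h7 : ρ ^ (r + j * l) = ρ ^ r * q ^ j := by
    rw [pow_add, mul_comm j l, pow_mul, hρl]
  have h8 : q ≤ ρ ^ r := by
    rw [← hρl]
    exact pow_le_pow_of_le_one hρ0.le hρ1.le hr.le
  rw [h7, ← mul_assoc]
  have h9 : 1 ≤ q⁻¹ * ρ ^ r := by
    rw [inv_mul_eq_div, one_le_div hq0]
    exact h8
  calc q ^ j = 1 * q ^ j := (one_mul _).symm
    _ ≤ (q⁻¹ * ρ ^ r) * q ^ j := mul_le_mul_of_nonneg_right h9 (by positivity)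

end

/-- Counting words in a language as a sum over all words. -/
theorem cnt_eq {α G : Type} [Fintype α] [Group G] (f : α → G) (L : Set (List α)) (n : ℕ) (g : G) :
    (cnt f L n g : ℝ) = ∑ w ∈ words α n,
      Set.indicator {w : List α | w ∈ L ∧ (w.map f).prod = g} (fun _ => (1 : ℝ)) w := by
  classical
  have h1 : {w : List α | w.length = n ∧ w ∈ L ∧ (w.map f).prod = g} =
      (((words α n).filter (fun w => w ∈ L ∧ (w.map f).prod = g) : Finset (List α)) :
        Set (List α)) := by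
    ext w
    simp only [Set.mem_ofPred_eq, Finset.coe_filter, mem_words]
  rw [cnt, h1, Set.ncard_coe_finset, Finset.card_filter]
  push_cast
  refine Finset.sum_congr rfl fun w _ => ?_
  simp only [Set.indicator, Set.mem_ofPred_eq]

theorem tot_eq {α : Type} [Fintype α] (L : Set (List α)) (n : ℕ) :
    (tot L n : ℝ) = ∑ w ∈ words α n, Set.indicator L (fun _ => (1 : ℝ)) w := by
  classical
  have h1 : {w : List α | w.length = n ∧ w ∈ L} =
      (((words α n).filter (fun w => w ∈ L) : Finset (List α)) : Set (List α)) := by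
    ext w
    simp only [Set.mem_ofPred_eq, Finset.coe_filter, mem_words]
  rw [tot, h1, Set.ncard_coe_finset, Finset.card_filter]
  push_cast
  refine Finset.sum_congr rfl fun w _ => ?_
  simp only [Set.indicator]

/-- Sum over all values. -/
theorem sum_cnt {α G : Type} [Fintype α] [Group G] [Fintype G] (f : α → G) (L : Set (List α))
    (n : ℕ) : ∑ g : G, (cnt f L n g : ℝ) = tot L n := by
  classical
  rw [tot_eq]
  rw [Finset.sum_congr rfl (fun g _ => cnt_eq f L n g), Finset.sum_comm]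
  refine Finset.sum_congr rfl fun w _ => ?_
  by_cases hw : w ∈ L
  · rw [Set.indicator_of_mem hw, Finset.sum_eq_single ((w.map f).prod)]
    · rw [Set.indicator_of_mem]
      exact ⟨hw, rfl⟩
    · intro b _ hb
      rw [Set.indicator_of_notMem]
      rintro ⟨_, h⟩
      exact hb h.symm
    · intro h
      exact absurd (Finset.mem_univ _) h
  · rw [Set.indicator_of_notMem hw]
    refine Finset.sum_eq_zero fun g _ => ?_
    rw [Set.indicator_of_notMem]
    rintro ⟨h, _⟩
    exact hw h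

theorem tot_compl {α : Type} [Fintype α] (L : Set (List α)) (n : ℕ) :
    (tot L n : ℝ) + tot Lᶜ n = (Fintype.card α : ℝ) ^ n := by
  classical
  rw [tot_eq, tot_eq, ← Finset.sum_add_distrib, ← card_words, Finset.card_eq_sum_ones]
  push_cast
  refine Finset.sum_congr rfl fun w _ => ?_
  by_cases hw : w ∈ L
  · rw [Set.indicator_of_mem hw, Set.indicator_of_notMem (by simpa using hw), add_zero]
  · rw [Set.indicator_of_notMem hw, Set.indicator_of_mem (by simpa using hw), zero_add]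

end Vale.Agent.P329.R2.H446
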