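import Vale.Agent.P329.H259.Defs
import Mathlib.Data.Set.Card
import Mathlib.Data.Real.Basic

/-!
# P329: statistics of a language against the product map of a group
-/

namespace Vale.Agent.P329.R2.H446

/-- Number of words `w` of length `n` in `L` whose product (of the values `f a` of the letters)
is `g`. -/
noncomputable def cnt {α G : Type} [Group G] (f : α → G) (L : Set (List α)) (n : ℕ) (g : G) : ℕ :=
  {w : List α | w.length = n ∧ w ∈ L ∧ (w.map f).prod = g}.ncard

/-- Number of words of length `n` in `L`. -/
noncomputable def tot {α : Type} (L : Set (List α)) (n : ℕ) : ℕ :=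
  {w : List α | w.length = n ∧ w ∈ L}.ncard

/-- The real sequence `x` is exponentially small against the number of words of length `n`. -/
def ExpSmall (α : Type) (x : ℕ → ℝ) : Prop :=
  ∃ C ρ : ℝ, 0 ≤ C ∧ 0 ≤ ρ ∧ ρ < 1 ∧ ∀ n : ℕ, |x n| ≤ C * ρ ^ n * (Nat.card α : ℝ) ^ n

/-- `L` is exponentially independent of the product map: for each `g` the number of words of
length `n` in `L` with product `g` is the fraction `1 / |G|` of all words of length `n` in `L`, up
to an exponentially small error. -/
def Independent {α G : Type} [Group G] (f : α → G) (L : Set (List α)) : Prop :=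
  ∀ g : G, ExpSmall α (fun n => (cnt f L n g : ℝ) - (tot L n : ℝ) / (Nat.card G : ℝ))

end Vale.Agent.P329.R2.H446
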