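import Vale.Agent.P329.H259.Hered

/-!
# P329: words of length divisible by `N`, and the visible quotient of a group
-/

namespace Vale.Agent.P329.R2.H446

open Set
open Vale.Agent.P329 (GRE)
open Vale.Agent.P329.H259

/-- The words of length `n`. -/
theorem exists_lenEq (α : Type) [Finite α] (n : ℕ) :
    ∃ e : GRE α, e.height = 0 ∧ e.lang = {w | w.length = n} := by
  induction n with
  | zero =>
    refine ⟨.one, rfl, ?_⟩
    ext w
    simp [GRE.lang]
  | succ n ih =>
    obtain ⟨e, he, hl⟩ := ih
    obtain ⟨f, hf, hfl⟩ := letters (Set.toFinite (Set.univ : Set α)).toFinset.toList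
    refine ⟨.concat f e, by simp [GRE.height, he, hf], ?_⟩
    rw [GRE.lang, hl, hfl]
    ext w
    constructor
    · rintro ⟨u, ⟨b, -, rfl⟩, v, hv, rfl⟩
      have hv' : v.length = n := hv
      change ([b] ++ v).length = n + 1
      simp [hv']
    · intro hw
      cases w with
      | nil => exact absurd hw (by simp)
      | cons b w =>
        have hw' : w.length + 1 = n + 1 := hw
        refine ⟨[b], ⟨b, by simp, rfl⟩, w, ?_, rfl⟩
        change w.length = n
        omega

theorem kst_length {α : Type} {N : ℕ} (w : List α) :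
    w ∈ kst {w : List α | w.length = N} ↔ N ∣ w.length := by
  constructor
  · rintro ⟨L, hL, rfl⟩
    induction L with
    | nil => simp
    | cons u L ih =>
      have h1 : u.length = N := hL u (by simp)
      have h2 := ih (fun v hv => hL v (List.mem_cons_of_mem _ hv))
      rw [List.flatten_cons, List.length_append, h1]
      exact Nat.dvd_add dvd_rfl h2
  · rintro ⟨k, hk⟩
    induction k generalizing w with
    | zero =>
      have : w = [] := by simpa using hk
      rw [this]
      exact kst_nil _
    | succ k ih =>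
      rw [← List.take_append_drop N w]
      have hle : N ≤ w.length := by
        rw [hk, Nat.mul_succ]
        exact Nat.le_add_left _ _
      refine kst_append (kst_of_mem ?_) (ih _ ?_)
      · change (w.take N).length = N
        rw [List.length_take]
        exact Nat.min_eq_left hle
      · rw [List.length_drop, hk, Nat.mul_succ]
        omega

theorem exists_lenGRE (α : Type) [Finite α] [Nonempty α] (N : ℕ) (hN : 0 < N) :
    ∃ e : GRE α, e.height ≤ 1 ∧ ∀ u v : List α, Syn e.lang u v → u.length ≡ v.length [MOD N] := by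
  obtain ⟨e, he, hl⟩ := exists_lenEq α N
  refine ⟨.star e, by simp [GRE.height, he], fun u v huv => ?_⟩
  rw [lang_star, hl] at huv
  obtain ⟨a⟩ := ‹Nonempty α›
  have h1 := huv (List.replicate (u.length * (N - 1)) a) []
  rw [kst_length, kst_length] at h1
  simp only [List.append_nil, List.length_append, List.length_replicate] at h1
  have h2 : N ∣ u.length * (N - 1) + u.length := by
    have : u.length * (N - 1) + u.length = u.length * N := by
      obtain ⟨M, rfl⟩ : ∃ M, N = M + 1 := ⟨N - 1, by omega⟩
      rw [Nat.add_sub_cancel, Nat.mul_succ]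
    rw [this]
    exact Nat.dvd_mul_left _ _
  have h3 := h1.1 h2
  have h4 : u.length * (N - 1) + u.length ≡ u.length * (N - 1) + v.length [MOD N] :=
    ((Nat.modEq_zero_iff_dvd.2 h2)).trans (Nat.modEq_zero_iff_dvd.2 h3).symm
  exact Nat.ModEq.add_left_cancel' _ h4

theorem visible {α G : Type} [Group G] [Finite G] (f : α → G)
    (hs : Function.Surjective (fun w : List α => (w.map f).prod)) (h : ℕ) :
    ∃ R : Subgroup G, R.Normal ∧ ∀ S : Set G,
      HL h {w : List α | (w.map f).prod ∈ S} ↔ ∀ s ∈ S, ∀ r ∈ R, s * r ∈ S := by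
  -- translations
  have htr : ∀ (S : Set G) (x y : G), HL h {w : List α | (w.map f).prod ∈ S} →
      HL h {w : List α | (w.map f).prod ∈ {z | x * z * y ∈ S}} := by
    intro S x y hS
    obtain ⟨u, hu⟩ := hs x
    obtain ⟨v, hv⟩ := hs y
    have h1 := hS.quot u v
    have h2 : {w : List α | u ++ w ++ v ∈ {w : List α | (w.map f).prod ∈ S}} =
        {w : List α | (w.map f).prod ∈ {z | x * z * y ∈ S}} := by
      ext w
      have hu' : (u.map f).prod = x := hu
      have hv' : (v.map f).prod = y := hv
      change ((u ++ w ++ v).map f).prod ∈ S ↔ x * (w.map f).prod * y ∈ S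
      rw [List.map_append, List.map_append, List.prod_append, List.prod_append, hu', hv']
    rwa [h2] at h1
  let R : Subgroup G :=
    { carrier := {r | ∀ S : Set G, HL h {w : List α | (w.map f).prod ∈ S} →
        ∀ x, x * r ∈ S ↔ x ∈ S}
      one_mem' := fun S _ x => by rw [mul_one]
      mul_mem' := by
        intro r s hr hs' S hS x
        rw [← mul_assoc, hs' S hS, hr S hS]
      inv_mem' := by
        intro r hr S hS x
        have := hr S hS (x * r⁻¹)
        rw [inv_mul_cancel_right] at this
        exact this.symm }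
  have hR : ∀ r : G, r ∈ R ↔ ∀ S : Set G, HL h {w : List α | (w.map f).prod ∈ S} →
      ∀ x, x * r ∈ S ↔ x ∈ S := fun r => Iff.rfl
  refine ⟨R, ⟨?_⟩, fun S => ⟨fun hS s hsS r hr => ((hR r).1 hr S hS s).2 hsS, fun hS => ?_⟩⟩
  · intro r hr g
    rw [hR]
    intro S hS x
    have h1 := (hR r).1 hr _ (htr S 1 g⁻¹ hS) (x * g)
    have h2 : x * g * r ∈ {z | 1 * z * g⁻¹ ∈ S} ↔ x * (g * r * g⁻¹) ∈ S := by
      change 1 * (x * g * r) * g⁻¹ ∈ S ↔ _
      rw [one_mul, mul_assoc, mul_assoc, mul_assoc]
    have h3 : x * g ∈ {z | 1 * z * g⁻¹ ∈ S} ↔ x ∈ S := by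
      change 1 * (x * g) * g⁻¹ ∈ S ↔ _
      rw [one_mul, mul_inv_cancel_right]
    rw [← h2, h1, h3]
  · -- the finite list of all visible sets
    have hfin : {A : Set (List α) | ∃ S' : Set G, HL h {w : List α | (w.map f).prod ∈ S'} ∧
        A = {w : List α | (w.map f).prod ∈ S'}}.Finite := by
      refine (Set.toFinite (Set.range
        (fun S' : Set G => {w : List α | (w.map f).prod ∈ S'}))).subset ?_
      rintro _ ⟨S', -, rfl⟩
      exact ⟨S', rfl⟩
    refine HL.bool hfin.toFinset.toList ?_ _ ?_
    · intro A hA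
      rw [Finset.mem_toList, Set.Finite.mem_toFinset] at hA
      obtain ⟨S', hS', rfl⟩ := hA
      exact hS'
    · intro u v huv
      have key : ∀ S' : Set G, HL h {w : List α | (w.map f).prod ∈ S'} →
          ((u.map f).prod ∈ S' ↔ (v.map f).prod ∈ S') := by
        intro S' hS'
        refine huv {w : List α | (w.map f).prod ∈ S'} ?_
        rw [Finset.mem_toList, Set.Finite.mem_toFinset]
        exact ⟨S', hS', rfl⟩
      have hmem : ((u.map f).prod)⁻¹ * (v.map f).prod ∈ R := by
        rw [hR]
        intro S' hS' x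
        have h1 := key _ (htr S' (x * ((u.map f).prod)⁻¹) 1 hS')
        have h2 : (u.map f).prod ∈ {z | x * ((u.map f).prod)⁻¹ * z * 1 ∈ S'} ↔ x ∈ S' := by
          change x * ((u.map f).prod)⁻¹ * (u.map f).prod * 1 ∈ S' ↔ _
          rw [mul_one, inv_mul_cancel_right]
        have h3 : (v.map f).prod ∈ {z | x * ((u.map f).prod)⁻¹ * z * 1 ∈ S'} ↔
            x * (((u.map f).prod)⁻¹ * (v.map f).prod) ∈ S' := by
          change x * ((u.map f).prod)⁻¹ * (v.map f).prod * 1 ∈ S' ↔ _
          rw [mul_one, mul_assoc]
        rw [← h3, ← h1, h2]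
      constructor
      · intro hu
        have := hS _ hu _ hmem
        rwa [mul_inv_cancel_left] at this
      · intro hv
        have := hS _ hv _ (R.inv_mem hmem)
        rw [mul_inv_rev, inv_inv, mul_inv_cancel_left] at this
        exact this

end Vale.Agent.P329.R2.H446
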