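import Vale.Agent.P329.R2.H446.Main
import Vale.Agent.P329.R2.H446.Vis

/-!
# P329: all finite groups, agreement, alternating groups
-/

namespace Vale.Agent.P329.R2.H446

open Vale.Agent.P329 (GRE)
open Vale.Agent.P329.H259 Finset

/-- The subgroup of a normal subgroup `K ≤ R`. -/
theorem CosetBound.mono {α G : Type} [Group G] {f : α → G} {L : Set (List α)} {K R : Subgroup G}
    (h : CosetBound f L R) (hK : K ≤ R) : CosetBound f L K := by
  obtain ⟨C, ρ, hC, h0, h1, hb⟩ := h
  exact ⟨C, ρ, hC, h0, h1, fun n g g' hg => hb n g g' (hK hg)⟩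

/-- All finite groups, all levels `h ≥ 1`. -/
theorem visible_quotient {α G : Type} [Finite α] [Group G] [Finite G]
    (f : α → G) (hs : Function.Surjective (fun w : List α => (w.map f).prod)) (h : ℕ)
    (hh : 1 ≤ h) :
    ∃ R : Subgroup G, R.Normal ∧
      (∀ S : Set G, HL h {w : List α | (w.map f).prod ∈ S} ↔ ∀ s ∈ S, ∀ r ∈ R, s * r ∈ S) ∧
      ∀ e : GRE α, e.height ≤ h → CosetBound f e.lang R := by
  obtain ⟨R, hN, hR⟩ := visible f hs h
  refine ⟨R, hN, hR, ?_⟩
  intro e he
  obtain ⟨K, hKN, hc, ⟨N, hN0, hmod⟩, _⟩ := regular_dichotomy f hs e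
  refine hc.mono ?_
  have hHL : HL h {w : List α | (w.map f).prod ∈ (K : Set G)} := by
    rcases isEmpty_or_nonempty α with hα | hα
    · have h1 : {w : List α | (w.map f).prod ∈ (K : Set G)} = Set.univ := by
        ext w
        cases w with
        | nil => simp
        | cons a _ => exact (hα.false a).elim
      rw [h1]
      exact HL.univ h
    · obtain ⟨x, hx, hxl⟩ := exists_lenGRE α N hN0
      apply bool_quot h [e, x]
      · intro y hy
        simp only [List.mem_cons, List.not_mem_nil, or_false] at hy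
        rcases hy with rfl | rfl
        · exact he
        · exact le_trans hx hh
      · intro u v huv
        have h1 := hmod u v (huv e (by simp)) (hxl u v (huv x (by simp)))
        change (u.map f).prod ∈ K ↔ (v.map f).prod ∈ K
        constructor
        · intro h2
          have := mul_mem (inv_mem h1) h2
          have h3 : ((u.map f).prod * ((v.map f).prod)⁻¹)⁻¹ * (u.map f).prod =
              (v.map f).prod := by group
          rwa [h3] at this
        · intro h2
          have := mul_mem h1 h2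
          have h3 : ((u.map f).prod * ((v.map f).prod)⁻¹) * (v.map f).prod =
              (u.map f).prod := by group
          rwa [h3] at this
  intro r hr
  have := (hR (K : Set G)).1 hHL 1 (one_mem K) r hr
  simpa using this

/-- Number of words on which a language agrees with a group language. -/
theorem agree_eq {α G : Type} [Fintype α] [Group G] [Fintype G] (f : α → G) (L : Set (List α))
    (S : Set G) (n : ℕ) :
    ({w : List α | w.length = n ∧ (w ∈ L ↔ (w.map f).prod ∈ S)}.ncard : ℝ) =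
      ∑ g : G, (Set.indicator S (fun g => (cnt f L n g : ℝ)) g +
        Set.indicator Sᶜ (fun g => (cnt f Lᶜ n g : ℝ)) g) := by
  classical
  have h1 : {w : List α | w.length = n ∧ (w ∈ L ↔ (w.map f).prod ∈ S)} =
      (((words α n).filter (fun w => (w ∈ L ↔ (w.map f).prod ∈ S)) : Finset (List α)) :
        Set (List α)) := by
    ext w
    simp only [Set.mem_ofPred_eq, Finset.coe_filter, mem_words]
  rw [h1, Set.ncard_coe_finset, Finset.card_filter]
  push_cast
  have h2 : ∀ g : G, (Set.indicator S (fun g => (cnt f L n g : ℝ)) g +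
        Set.indicator Sᶜ (fun g => (cnt f Lᶜ n g : ℝ)) g) =
      ∑ w ∈ words α n, (if (w.map f).prod = g then
        (if (w ∈ L ↔ (w.map f).prod ∈ S) then (1 : ℝ) else 0) else 0) := by
    intro g
    by_cases hg : g ∈ S
    · rw [Set.indicator_of_mem hg, Set.indicator_of_notMem (by simpa using hg), add_zero, cnt_eq]
      refine Finset.sum_congr rfl fun w _ => ?_
      by_cases h : (w.map f).prod = g
      · by_cases hw : w ∈ L
        · rw [Set.indicator_of_mem (show w ∈ {w : List α | w ∈ L ∧ (w.map f).prod = g} from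
            ⟨hw, h⟩), if_pos h, if_pos]
          rw [h]; exact ⟨fun _ => hg, fun _ => hw⟩
        · rw [Set.indicator_of_notMem (show w ∉ {w : List α | w ∈ L ∧ (w.map f).prod = g} from
            fun h' => hw h'.1), if_pos h, if_neg]
          rw [h]; exact fun h' => hw (h'.2 hg)
      · rw [Set.indicator_of_notMem (show w ∉ {w : List α | w ∈ L ∧ (w.map f).prod = g} from
            fun h' => h h'.2), if_neg h]
    · rw [Set.indicator_of_notMem hg, Set.indicator_of_mem (show g ∈ Sᶜ from hg), zero_add, cnt_eq]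
      refine Finset.sum_congr rfl fun w _ => ?_
      by_cases h : (w.map f).prod = g
      · by_cases hw : w ∈ L
        · rw [Set.indicator_of_notMem (show w ∉ {w : List α | w ∈ Lᶜ ∧ (w.map f).prod = g} from
            fun h' => h'.1 hw), if_pos h, if_neg]
          rw [h]; exact fun h' => hg (h'.1 hw)
        · rw [Set.indicator_of_mem (show w ∈ {w : List α | w ∈ Lᶜ ∧ (w.map f).prod = g} from
            ⟨hw, h⟩), if_pos h, if_pos]
          rw [h]; exact ⟨fun h' => absurd h' hw, fun h' => absurd h' hg⟩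
      · rw [Set.indicator_of_notMem (show w ∉ {w : List α | w ∈ Lᶜ ∧ (w.map f).prod = g} from
            fun h' => h h'.2), if_neg h]
  rw [Finset.sum_congr rfl (fun g _ => h2 g), Finset.sum_comm]
  refine Finset.sum_congr rfl fun w _ => ?_
  rw [Finset.sum_ite_eq, if_pos (Finset.mem_univ _)]

/-- No advantage over a constant guess. -/
theorem agreement {α G : Type} [Finite α] [Group G] [Finite G] [IsSimpleGroup G]
    (f : α → G) (hG : ∃ a b : G, a * b ≠ b * a)
    (hs : Function.Surjective (fun w : List α => (w.map f).prod)) (S : Set G) (h : ℕ)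
    (hS : ¬ HL h {w : List α | (w.map f).prod ∈ S}) (e : GRE α) (he : e.height ≤ h) :
    ∃ C ρ : ℝ, 0 ≤ C ∧ 0 ≤ ρ ∧ ρ < 1 ∧ ∀ n : ℕ,
      ({w : List α | w.length = n ∧ (w ∈ e.lang ↔ (w.map f).prod ∈ S)}.ncard : ℝ) ≤
        (((max S.ncard Sᶜ.ncard : ℕ) : ℝ) / Nat.card G + C * ρ ^ n) * (Nat.card α : ℝ) ^ n := by
  classical
  have := Fintype.ofFinite α
  have := Fintype.ofFinite G
  have h1 : CosetBound f e.lang ⊤ := by
    rcases simple_coset f hG hs e h he with h1 | h1
    · exact absurd (h1 S) hS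
    · exact h1
  have h2 : CosetBound f (e.lang)ᶜ ⊤ := by
    rcases simple_coset f hG hs (.compl e) h he with h1 | h1
    · exact absurd (h1 S) hS
    · exact h1
  obtain ⟨C₁, ρ₁, hC₁, h10, h11, hb₁⟩ := h1
  obtain ⟨C₂, ρ₂, hC₂, h20, h21, hb₂⟩ := h2
  have hGp : (0 : ℝ) < (Nat.card G : ℝ) := by exact_mod_cast Nat.card_pos
  have hone : ∀ (L : Set (List α)) (C ρ : ℝ) (n : ℕ), (∀ (n : ℕ) (g g' : G),
      g⁻¹ * g' ∈ (⊤ : Subgroup G) →
      |(cnt f L n g : ℝ) - cnt f L n g'| ≤ C * ρ ^ n * (Nat.card α : ℝ) ^ n) → ∀ g : G,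
      (cnt f L n g : ℝ) ≤ (tot L n : ℝ) / Nat.card G + C * ρ ^ n * (Nat.card α : ℝ) ^ n := by
    intro L C ρ n hb g
    have h3 : (Nat.card G : ℝ) * cnt f L n g - tot L n =
        ∑ x : G, ((cnt f L n g : ℝ) - cnt f L n x) := by
      rw [Finset.sum_sub_distrib, sum_cnt, Finset.sum_const, Finset.card_univ, nsmul_eq_mul,
        ← Nat.card_eq_fintype_card]
    have h4 : ∑ x : G, ((cnt f L n g : ℝ) - cnt f L n x) ≤
        ∑ x : G, (C * ρ ^ n * (Nat.card α : ℝ) ^ n) :=
      Finset.sum_le_sum fun x _ => (le_abs_self _).trans (hb n g x (Subgroup.mem_top _))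
    rw [Finset.sum_const, Finset.card_univ, nsmul_eq_mul, ← Nat.card_eq_fintype_card, ← h3] at h4
    have h5 : (tot L n : ℝ) / Nat.card G + C * ρ ^ n * (Nat.card α : ℝ) ^ n =
        ((tot L n : ℝ) + Nat.card G * (C * ρ ^ n * (Nat.card α : ℝ) ^ n)) / Nat.card G := by
      field_simp
    rw [h5, le_div_iff₀ hGp]
    linarith
  set ρ : ℝ := max ρ₁ ρ₂ with hρ
  have hρ0 : 0 ≤ ρ := le_trans h10 (le_max_left _ _)
  refine ⟨(Nat.card G : ℝ) * (C₁ + C₂), ρ, by positivity, hρ0, max_lt h11 h21, ?_⟩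
  intro n
  rw [agree_eq]
  set A : ℝ := (Nat.card α : ℝ) ^ n with hA
  have hA0 : 0 ≤ A := by positivity
  have hp1 : C₁ * ρ₁ ^ n * A ≤ C₁ * ρ ^ n * A := by
    refine mul_le_mul_of_nonneg_right (mul_le_mul_of_nonneg_left ?_ hC₁) hA0
    exact pow_le_pow_left₀ h10 (le_max_left _ _) n
  have hp2 : C₂ * ρ₂ ^ n * A ≤ C₂ * ρ ^ n * A := by
    refine mul_le_mul_of_nonneg_right (mul_le_mul_of_nonneg_left ?_ hC₂) hA0
    exact pow_le_pow_left₀ h20 (le_max_right _ _) n
  have hq1 : 0 ≤ C₁ * ρ ^ n * A := by positivity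
  have hq2 : 0 ≤ C₂ * ρ ^ n * A := by positivity
  have hterm : ∀ g : G, (Set.indicator S (fun g => (cnt f e.lang n g : ℝ)) g +
        Set.indicator Sᶜ (fun g => (cnt f (e.lang)ᶜ n g : ℝ)) g) ≤
      (Set.indicator S (fun _ => (tot e.lang n : ℝ) / Nat.card G) g +
        Set.indicator Sᶜ (fun _ => (tot (e.lang)ᶜ n : ℝ) / Nat.card G) g) +
        (C₁ + C₂) * ρ ^ n * A := by
    intro g
    by_cases hg : g ∈ S
    · rw [Set.indicator_of_mem hg, Set.indicator_of_mem hg,
        Set.indicator_of_notMem (show g ∉ Sᶜ from fun h' => h' hg),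
        Set.indicator_of_notMem (show g ∉ Sᶜ from fun h' => h' hg)]
      have := hone e.lang C₁ ρ₁ n hb₁ g
      nlinarith
    · rw [Set.indicator_of_notMem hg, Set.indicator_of_notMem hg,
        Set.indicator_of_mem (show g ∈ Sᶜ from hg), Set.indicator_of_mem (show g ∈ Sᶜ from hg)]
      have := hone (e.lang)ᶜ C₂ ρ₂ n hb₂ g
      nlinarith
  refine (Finset.sum_le_sum fun g _ => hterm g).trans ?_
  have hind : ∀ (T : Set G) (c : ℝ), ∑ g : G, Set.indicator T (fun _ => c) g = T.ncard * c := by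
    intro T c
    have h3 : T.ncard = (Finset.univ.filter (fun g => g ∈ T)).card := by
      rw [← Set.ncard_coe_finset]
      congr 1
      ext g
      simp
    rw [h3, Finset.card_filter]
    push_cast
    rw [Finset.sum_mul]
    refine Finset.sum_congr rfl fun g _ => ?_
    by_cases hg : g ∈ T
    · rw [Set.indicator_of_mem hg, if_pos hg, one_mul]
    · rw [Set.indicator_of_notMem hg, if_neg hg, zero_mul]
  rw [Finset.sum_add_distrib, Finset.sum_add_distrib, hind, hind, Finset.sum_const,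
    Finset.card_univ, nsmul_eq_mul, ← Nat.card_eq_fintype_card]
  have htot := tot_compl e.lang n
  rw [← Nat.card_eq_fintype_card] at htot
  have hm1 : (S.ncard : ℝ) ≤ ((max S.ncard Sᶜ.ncard : ℕ) : ℝ) := by
    exact_mod_cast le_max_left _ _
  have hm2 : (Sᶜ.ncard : ℝ) ≤ ((max S.ncard Sᶜ.ncard : ℕ) : ℝ) := by
    exact_mod_cast le_max_right _ _
  have ht1 : 0 ≤ (tot e.lang n : ℝ) / Nat.card G := by positivity
  have ht2 : 0 ≤ (tot (e.lang)ᶜ n : ℝ) / Nat.card G := by positivity
  have hkey : (S.ncard : ℝ) * ((tot e.lang n : ℝ) / Nat.card G) +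
      (Sᶜ.ncard : ℝ) * ((tot (e.lang)ᶜ n : ℝ) / Nat.card G) ≤
      ((max S.ncard Sᶜ.ncard : ℕ) : ℝ) / Nat.card G * A := by
    have h3 := mul_le_mul_of_nonneg_right hm1 ht1
    have h4 := mul_le_mul_of_nonneg_right hm2 ht2
    have h5 : ((max S.ncard Sᶜ.ncard : ℕ) : ℝ) / Nat.card G * A =
        ((max S.ncard Sᶜ.ncard : ℕ) : ℝ) * ((tot e.lang n : ℝ) / Nat.card G) +
        ((max S.ncard Sᶜ.ncard : ℕ) : ℝ) * ((tot (e.lang)ᶜ n : ℝ) / Nat.card G) := by
      rw [hA, ← htot]; ring
    rw [h5]
    exact add_le_add h3 h4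
  have h6 : (((max S.ncard Sᶜ.ncard : ℕ) : ℝ) / Nat.card G +
      (Nat.card G : ℝ) * (C₁ + C₂) * ρ ^ n) * A =
      ((max S.ncard Sᶜ.ncard : ℕ) : ℝ) / Nat.card G * A +
        (Nat.card G : ℝ) * ((C₁ + C₂) * ρ ^ n * A) := by ring
  rw [h6]
  exact add_le_add hkey (le_refl _)

/-- From one correlated language over each of infinitely many alternating groups to all groups. -/
theorem all_of_corr (h : ℕ)
    (H : ∀ N : ℕ, ∃ n, N ≤ n ∧ ∃ e : GRE (alternatingGroup (Fin n)), e.height ≤ h ∧
        ¬ Independent (id : alternatingGroup (Fin n) → alternatingGroup (Fin n)) e.lang) :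
    GroupHeight h := by
  intro α _ G _ _ f S
  obtain ⟨n, hn, e, he, hf⟩ := H (2 * Nat.card G + 5)
  obtain ⟨j, hj⟩ := exists_embed G n (by omega)
  have hsim := alt_simple n (by omega)
  have hs : Function.Surjective (fun w : List (alternatingGroup (Fin n)) => (w.map id).prod) :=
    fun g => ⟨[g], by simp⟩
  have hall : ∀ T : Set (alternatingGroup (Fin n)),
      HL h {w : List (alternatingGroup (Fin n)) | (w.map id).prod ∈ T} := by
    rcases simple_dichotomy (id : alternatingGroup (Fin n) → alternatingGroup (Fin n))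
      (alt_noncomm n (by omega)) hs e h he with h1 | h1
    · exact h1
    · exact absurd h1 hf
  obtain ⟨x, hx, hl⟩ := (hall (j '' S)).restrict (fun a => j (f a))
  refine ⟨x, hx, ?_⟩
  rw [hl]
  ext w
  change ((w.map (fun a => j (f a))).map id).prod ∈ j '' S ↔ (w.map f).prod ∈ S
  rw [List.map_id, prod_hom]
  constructor
  · rintro ⟨s, hs, hs'⟩
    rwa [← hj hs']
  · intro hw
    exact ⟨_, hw, rfl⟩

end Vale.Agent.P329.R2.H446
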