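import Vale.Agent.P329.R2.H446.Fin
import Mathlib.Data.Set.Finite.List

/-!
# P329: every finite group, the error of an approximation of too small height
-/

namespace Vale.Agent.P329.R2.H446

open Vale.Agent.P329 (GRE)
open Vale.Agent.P329.H259

/-- If the preimage of `S` has height greater than `h`, then for some `s ∈ S` every language of
height at most `h` errs on at least as many words of length `n` as have product `s`, up to an
exponentially small part of all words. -/
theorem gap {α G : Type} [Finite α] [Group G] [Finite G]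
    (f : α → G) (hs : Function.Surjective (fun w : List α => (w.map f).prod)) (h : ℕ)
    (hh : 1 ≤ h) (S : Set G) (hS : ¬ HL h {w : List α | (w.map f).prod ∈ S}) :
    ∃ s ∈ S, ∀ e : GRE α, e.height ≤ h → ∃ C ρ : ℝ, 0 ≤ C ∧ 0 ≤ ρ ∧ ρ < 1 ∧ ∀ n : ℕ,
      ({w : List α | w.length = n ∧ (w.map f).prod = s}.ncard : ℝ) ≤
        ({w : List α | w.length = n ∧ ¬ (w ∈ e.lang ↔ (w.map f).prod ∈ S)}.ncard : ℝ) +
          C * ρ ^ n * (Nat.card α : ℝ) ^ n := by
  obtain ⟨R, hR, hiff, hc⟩ := visible_quotient f hs h hh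
  rw [hiff] at hS
  push Not at hS
  obtain ⟨s, hsS, r, hr, hrS⟩ := hS
  refine ⟨s, hsS, fun e he => ?_⟩
  obtain ⟨C, ρ, hC, hρ0, hρ1, hb⟩ := hc e he
  refine ⟨C, ρ, hC, hρ0, hρ1, fun n => ?_⟩
  have hfin : {w : List α | w.length = n}.Finite := List.finite_length_eq α n
  have h1 : {w : List α | w.length = n ∧ (w.map f).prod = s}.ncard ≤
      {w : List α | w.length = n ∧ w ∉ e.lang ∧ (w.map f).prod = s}.ncard +
        cnt f e.lang n s := by
    unfold cnt
    refine (Set.ncard_le_ncard ?_ ((hfin.subset ?_).union (hfin.subset ?_))).trans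
      (Set.ncard_union_le _ _)
    · intro w hw
      by_cases hl : w ∈ e.lang
      · exact Or.inr ⟨hw.1, hl, hw.2⟩
      · exact Or.inl ⟨hw.1, hl, hw.2⟩
    · intro w hw; exact hw.1
    · intro w hw; exact hw.1
  have h2 : {w : List α | w.length = n ∧ w ∉ e.lang ∧ (w.map f).prod = s}.ncard +
      cnt f e.lang n (s * r) ≤
      {w : List α | w.length = n ∧ ¬ (w ∈ e.lang ↔ (w.map f).prod ∈ S)}.ncard := by
    unfold cnt
    rw [← Set.ncard_union_eq ?_ (hfin.subset ?_) (hfin.subset ?_)]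
    · refine Set.ncard_le_ncard ?_ (hfin.subset fun w hw => hw.1)
      rintro w (⟨ha, hb, hc⟩ | ⟨ha, hb, hc⟩)
      · refine ⟨ha, fun hi => hb (hi.2 ?_)⟩
        rw [hc]; exact hsS
      · refine ⟨ha, fun hi => hrS ?_⟩
        have := hi.1 hb
        rwa [hc] at this
    · rw [Set.disjoint_left]
      rintro w ⟨-, hb, -⟩ ⟨-, hc, -⟩
      exact hb hc
    · intro w hw; exact hw.1
    · intro w hw; exact hw.1
  have h3 := hb n s (s * r) (by rw [inv_mul_cancel_left]; exact hr)
  have h4 := (le_abs_self _).trans h3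
  have h1' : ({w : List α | w.length = n ∧ (w.map f).prod = s}.ncard : ℝ) ≤
      ({w : List α | w.length = n ∧ w ∉ e.lang ∧ (w.map f).prod = s}.ncard : ℝ) +
        (cnt f e.lang n s : ℝ) := by exact_mod_cast h1
  have h2' : ({w : List α | w.length = n ∧ w ∉ e.lang ∧ (w.map f).prod = s}.ncard : ℝ) +
      (cnt f e.lang n (s * r) : ℝ) ≤
      ({w : List α | w.length = n ∧ ¬ (w ∈ e.lang ↔ (w.map f).prod ∈ S)}.ncard : ℝ) := by
    exact_mod_cast h2
  linarith

/-- In a whole residue class of lengths, the words with product `s` are at least the fraction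
`1 / |G|` of all words, up to an exponentially small part. -/
theorem density {α G : Type} [Finite α] [Group G] [Finite G]
    (f : α → G) (hs : Function.Surjective (fun w : List α => (w.map f).prod)) (s : G) :
    ∃ N : ℕ, 0 < N ∧ ∃ (m : ℕ) (C ρ : ℝ), 0 ≤ C ∧ 0 ≤ ρ ∧ ρ < 1 ∧
      ∀ n : ℕ, n ≡ m [MOD N] → (Nat.card α : ℝ) ^ n / Nat.card G ≤
        ({w : List α | w.length = n ∧ (w.map f).prod = s}.ncard : ℝ) +
          C * ρ ^ n * (Nat.card α : ℝ) ^ n := by
  have := Fintype.ofFinite α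
  have := Fintype.ofFinite G
  obtain ⟨R, hR, ⟨C, ρ, hC, hρ0, hρ1, hb⟩, ⟨N, hN, hsyn⟩, -⟩ :=
    regular_dichotomy f hs (GRE.compl GRE.zero : GRE α)
  obtain ⟨u₀, hu₀⟩ := hs s
  refine ⟨N, hN, u₀.length, C, ρ, hC, hρ0, hρ1, fun n hn => ?_⟩
  have huniv : (GRE.compl GRE.zero : GRE α).lang = Set.univ := by
    change (∅ : Set (List α))ᶜ = Set.univ
    exact Set.compl_empty
  rw [huniv] at hb hsyn
  have hcs : cnt f (Set.univ : Set (List α)) n s =
      {w : List α | w.length = n ∧ (w.map f).prod = s}.ncard := by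
    unfold cnt
    congr 1
    ext w
    constructor
    · rintro ⟨a, -, b⟩; exact ⟨a, b⟩
    · rintro ⟨a, b⟩; exact ⟨a, trivial, b⟩
  have hE : (0 : ℝ) ≤ C * ρ ^ n * (Nat.card α : ℝ) ^ n := by positivity
  have hle : ∀ g : G, (cnt f (Set.univ : Set (List α)) n g : ℝ) ≤
      (cnt f (Set.univ : Set (List α)) n s : ℝ) + C * ρ ^ n * (Nat.card α : ℝ) ^ n := by
    intro g
    by_cases hz : ∃ w : List α, w.length = n ∧ (w.map f).prod = g
    · obtain ⟨w, hw, hwg⟩ := hz
      have h1 := hsyn w u₀ (fun x y => Iff.rfl) (by rw [hw]; exact hn)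
      have h2 : (u₀.map f).prod = s := hu₀
      rw [hwg, h2] at h1
      have h3 : s⁻¹ * g ∈ R := by
        have := hR.conj_mem _ h1 s⁻¹
        simpa [mul_assoc] using this
      have h4 := (abs_le.1 (hb n s g h3)).1
      linarith
    · have h0 : cnt f (Set.univ : Set (List α)) n g = 0 := by
        unfold cnt
        have : {w : List α | w.length = n ∧ w ∈ (Set.univ : Set (List α)) ∧
            (w.map f).prod = g} = ∅ := by
          ext w
          constructor
          · rintro ⟨a, -, b⟩; exact absurd ⟨w, a, b⟩ hz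
          · intro h; exact h.elim
        rw [this, Set.ncard_empty]
      rw [h0]
      push_cast
      have : (0 : ℝ) ≤ (cnt f (Set.univ : Set (List α)) n s : ℝ) := Nat.cast_nonneg _
      linarith
  have hsum := sum_cnt f (Set.univ : Set (List α)) n
  have htot : (tot (Set.univ : Set (List α)) n : ℝ) = (Nat.card α : ℝ) ^ n := by
    have h1 := tot_compl (Set.univ : Set (List α)) n
    have h2 : tot ((Set.univ : Set (List α))ᶜ) n = 0 := by
      unfold tot
      have : {w : List α | w.length = n ∧ w ∈ (Set.univ : Set (List α))ᶜ} = ∅ := by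
        ext w
        constructor
        · rintro ⟨-, b⟩; exact absurd trivial b
        · intro h; exact h.elim
      rw [this, Set.ncard_empty]
    rw [h2] at h1
    rw [Nat.card_eq_fintype_card]
    push_cast at h1
    linarith
  rw [htot] at hsum
  have hG0 : (0 : ℝ) < (Nat.card G : ℝ) := by exact_mod_cast Nat.card_pos
  have hle' : (Nat.card α : ℝ) ^ n ≤ (Nat.card G : ℝ) *
      ((cnt f (Set.univ : Set (List α)) n s : ℝ) + C * ρ ^ n * (Nat.card α : ℝ) ^ n) := by
    refine (le_of_eq hsum.symm).trans ((Finset.sum_le_sum fun g _ => hle g).trans ?_)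
    rw [Finset.sum_const, nsmul_eq_mul, Finset.card_univ, Nat.card_eq_fintype_card (α := G)]
  rw [← hcs, div_le_iff₀ hG0]
  linarith

/-- If the preimage of `S` has height greater than `h ≥ 1`, then in a whole residue class of
lengths every language of height at most `h` errs on at least the fraction `1 / |G|` of all words,
up to an exponentially small part. -/
theorem gap_density {α G : Type} [Finite α] [Group G] [Finite G]
    (f : α → G) (hs : Function.Surjective (fun w : List α => (w.map f).prod)) (h : ℕ)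
    (hh : 1 ≤ h) (S : Set G) (hS : ¬ HL h {w : List α | (w.map f).prod ∈ S}) :
    ∃ N : ℕ, 0 < N ∧ ∃ m : ℕ, ∀ e : GRE α, e.height ≤ h →
      ∃ C ρ : ℝ, 0 ≤ C ∧ 0 ≤ ρ ∧ ρ < 1 ∧ ∀ n : ℕ, n ≡ m [MOD N] →
      (1 / Nat.card G - C * ρ ^ n) * (Nat.card α : ℝ) ^ n ≤
        ({w : List α | w.length = n ∧ ¬ (w ∈ e.lang ↔ (w.map f).prod ∈ S)}.ncard : ℝ) := by
  obtain ⟨s, -, hg⟩ := gap f hs h hh S hS
  obtain ⟨N, hN, m, C', ρ', hC', hρ0', hρ1', hd⟩ := density f hs s
  refine ⟨N, hN, m, fun e he => ?_⟩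
  obtain ⟨C, ρ, hC, hρ0, hρ1, hb⟩ := hg e he
  refine ⟨C + C', max ρ ρ', by positivity, le_max_of_le_left hρ0, max_lt hρ1 hρ1', ?_⟩
  intro n hn
  have h1 := hb n
  have h2 := hd n hn
  have hA : (0 : ℝ) ≤ (Nat.card α : ℝ) ^ n := by positivity
  have h3 : C * ρ ^ n ≤ C * (max ρ ρ') ^ n :=
    mul_le_mul_of_nonneg_left (pow_le_pow_left₀ hρ0 (le_max_left _ _) n) hC
  have h4 : C' * ρ' ^ n ≤ C' * (max ρ ρ') ^ n :=
    mul_le_mul_of_nonneg_left (pow_le_pow_left₀ hρ0' (le_max_right _ _) n) hC'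
  have h5 := mul_le_mul_of_nonneg_right h3 hA
  have h6 := mul_le_mul_of_nonneg_right h4 hA
  have h7 : (1 / (Nat.card G : ℝ) - (C + C') * (max ρ ρ') ^ n) * (Nat.card α : ℝ) ^ n =
      (Nat.card α : ℝ) ^ n / Nat.card G - C * (max ρ ρ') ^ n * (Nat.card α : ℝ) ^ n -
        C' * (max ρ ρ') ^ n * (Nat.card α : ℝ) ^ n := by ring
  rw [h7]
  linarith

end Vale.Agent.P329.R2.H446
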