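import Vale.Agent.P329.R2.H446.Count
import Vale.Agent.P329.H259.Equiv

/-!
# P329: a regular language and the product map of a finite group: dichotomy
-/

namespace Vale.Agent.P329.R2.H446

open Vale.Agent.P329 (GRE)
open Vale.Agent.P329.H259 Finset

/-- Uniform exponential bound on the cosets of `R`. -/
def CosetBound {α G : Type} [Group G] (f : α → G) (L : Set (List α)) (R : Subgroup G) : Prop :=
  ∃ C ρ : ℝ, 0 ≤ C ∧ 0 ≤ ρ ∧ ρ < 1 ∧ ∀ (n : ℕ) (g g' : G), g⁻¹ * g' ∈ R →
    |(cnt f L n g : ℝ) - cnt f L n g'| ≤ C * ρ ^ n * (Nat.card α : ℝ) ^ n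

theorem cosetBound {α M G : Type} [Finite α] [Nonempty α] [Monoid M] [Group G] [Finite G]
    (f : α → G) (hs : Function.Surjective (fun w : List α => (w.map f).prod))
    {η : List α → M} (hη : Hom η) (L : Set (List α))
    (hL : ∀ u v, η u = η v → (u ∈ L ↔ v ∈ L)) :
    CosetBound f L (DR η (fun w : List α => (w.map f).prod)) := by
  classical
  have := Fintype.ofFinite α
  have := Fintype.ofFinite G
  have hP := hom_prod f
  obtain ⟨l, m₀, x₀, hl, hF⟩ := exists_coset (α := α) hη hP
  obtain ⟨C, ρ, hC, hρ0, hρ1, hb⟩ := opS_bound hη hP (DR_normal hη hP hs) l hl m₀ x₀ hF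
  refine ⟨C, ρ, hC, hρ0, hρ1, ?_⟩
  intro n g g' hg
  set χ : M → ℝ := Set.indicator (η '' L) (fun _ => (1 : ℝ)) with hχ
  have hχ1 : ∀ w : List α, χ (η w) = Set.indicator L (fun _ => (1 : ℝ)) w := by
    intro w
    by_cases hw : w ∈ L
    · rw [Set.indicator_of_mem hw, hχ, Set.indicator_of_mem (show η w ∈ η '' L from ⟨w, hw, rfl⟩)]
    · rw [Set.indicator_of_notMem hw, hχ, Set.indicator_of_notMem]
      rintro ⟨u, hu, huw⟩
      exact hw ((hL u w huw).1 hu)
  have hχ2 : ∀ m, χ m = 0 ∨ χ m = 1 := by
    intro m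
    by_cases hm : m ∈ η '' L
    · right; rw [hχ, Set.indicator_of_mem hm]
    · left; rw [hχ, Set.indicator_of_notMem hm]
  set d : G → G → ℝ := fun a x => Set.indicator {a} (fun _ => (1 : ℝ)) x with hd
  have hd2 : ∀ a x, d a x = 0 ∨ d a x = 1 := by
    intro a x
    by_cases h : x ∈ ({a} : Set G)
    · right; simp only [hd, Set.indicator_of_mem h]
    · left; simp only [hd, Set.indicator_of_notMem h]
  have hdsum : ∀ (F : G → ℝ) (a : G), ∑ x, F x * d a x = F a := by
    intro F a
    rw [Finset.sum_eq_single a]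
    · simp [hd]
    · intro b _ hb
      have : b ∉ ({a} : Set G) := by simpa using hb
      simp only [hd, Set.indicator_of_notMem this, mul_zero]
    · intro h
      exact absurd (Finset.mem_univ a) h
  set φ : M → G → ℝ := fun m x => χ m * (d g x - d g' x) with hφ
  have hZ : ZS (DR η (fun w : List α => (w.map f).prod)) φ := by
    intro m k
    have h1 : ∀ x : G, ind (DR η (fun w : List α => (w.map f).prod)) (k⁻¹ * x) * φ m x =
        χ m * (ind (DR η (fun w : List α => (w.map f).prod)) (k⁻¹ * x) * d g x -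
          ind (DR η (fun w : List α => (w.map f).prod)) (k⁻¹ * x) * d g' x) := by
      intro x
      simp only [hφ]; ring
    rw [Finset.sum_congr rfl (fun x _ => h1 x), ← Finset.mul_sum, Finset.sum_sub_distrib,
      hdsum (fun x => ind (DR η (fun w : List α => (w.map f).prod)) (k⁻¹ * x)) g,
      hdsum (fun x => ind (DR η (fun w : List α => (w.map f).prod)) (k⁻¹ * x)) g']
    have h2 : k⁻¹ * g ∈ DR η (fun w : List α => (w.map f).prod) ↔
        k⁻¹ * g' ∈ DR η (fun w : List α => (w.map f).prod) := by
      constructor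
      · intro h
        have := mul_mem h hg
        have h3 : k⁻¹ * g * (g⁻¹ * g') = k⁻¹ * g' := by group
        rwa [h3] at this
      · intro h
        have := mul_mem h (inv_mem hg)
        have h3 : k⁻¹ * g' * (g⁻¹ * g')⁻¹ = k⁻¹ * g := by group
        rwa [h3] at this
    rw [ind_congr h2, sub_self, mul_zero]
  have hB : ∀ m x, |φ m x| ≤ 1 := by
    intro m x
    simp only [hφ]
    rcases hχ2 m with h | h <;> rcases hd2 g x with h1 | h1 <;> rcases hd2 g' x with h2 | h2 <;>
      rw [h, h1, h2] <;> norm_num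
  have hfin := hb φ hZ hB n 1 1
  have hval : opS η (fun w : List α => (w.map f).prod) n φ 1 1 =
      (cnt f L n g : ℝ) - cnt f L n g' := by
    rw [cnt_eq, cnt_eq, ← Finset.sum_sub_distrib]
    unfold opS
    refine Finset.sum_congr rfl fun w _ => ?_
    simp only [hφ, one_mul, hχ1]
    by_cases hw : w ∈ L
    · rw [Set.indicator_of_mem hw, one_mul]
      congr 1
      · by_cases h : (w.map f).prod = g
        · rw [Set.indicator_of_mem (show w ∈ {w : List α | w ∈ L ∧ (w.map f).prod = g} from
            ⟨hw, h⟩)]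
          simp [hd, h]
        · rw [Set.indicator_of_notMem (show w ∉ {w : List α | w ∈ L ∧ (w.map f).prod = g} from
            fun h' => h h'.2)]
          simp [hd, h]
      · by_cases h : (w.map f).prod = g'
        · rw [Set.indicator_of_mem (show w ∈ {w : List α | w ∈ L ∧ (w.map f).prod = g'} from
            ⟨hw, h⟩)]
          simp [hd, h]
        · rw [Set.indicator_of_notMem (show w ∉ {w : List α | w ∈ L ∧ (w.map f).prod = g'} from
            fun h' => h h'.2)]
          simp [hd, h]
    · rw [Set.indicator_of_notMem hw, Set.indicator_of_notMem (fun h => hw h.1),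
        Set.indicator_of_notMem (fun h => hw h.1)]
      ring
  rw [hval] at hfin
  rw [Nat.card_eq_fintype_card]
  exact hfin

/-- Dichotomy for a regular language and a finite group. -/
theorem regular_dichotomy {α G : Type} [Finite α] [Group G] [Finite G]
    (f : α → G) (hs : Function.Surjective (fun w : List α => (w.map f).prod)) (e : GRE α) :
    ∃ R : Subgroup G, R.Normal ∧ CosetBound f e.lang R ∧
      (∃ N : ℕ, 0 < N ∧ ∀ u v : List α, Syn e.lang u v → u.length ≡ v.length [MOD N] →
        (u.map f).prod * ((v.map f).prod)⁻¹ ∈ R) ∧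
      (∀ u v : List α, Syn e.lang u v → ∀ k : G,
        ((u.map f).prod * ((v.map f).prod)⁻¹) * k * ((u.map f).prod * ((v.map f).prod)⁻¹)⁻¹ * k⁻¹
          ∈ R) := by
  rcases isEmpty_or_nonempty α with hα | hα
  · -- the empty alphabet
    have hw : ∀ w : List α, w = [] := by
      intro w
      cases w with
      | nil => rfl
      | cons a _ => exact (hα.false a).elim
    have hG : ∀ g : G, g = 1 := by
      intro g
      obtain ⟨w, rfl⟩ := hs g
      simp [hw w]
    refine ⟨⊤, inferInstance, ⟨0, 0, le_refl _, le_refl _, one_pos, ?_⟩, ⟨1, one_pos, ?_⟩, ?_⟩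
    · intro n g g' _
      rw [hG g, hG g', sub_self, abs_zero]
      simp
    · intro u v _ _
      exact Subgroup.mem_top _
    · intro u v _ k
      exact Subgroup.mem_top _
  · obtain ⟨M, iM, fM, η, hη, hk⟩ := (FQ.lang e).monoid
    have hP := hom_prod f
    refine ⟨DR η (fun w : List α => (w.map f).prod), DR_normal hη hP hs,
      cosetBound f hs hη e.lang (fun u v h => ((hk u v).1 h).mem), ?_, ?_⟩
    · obtain ⟨N, hN, h⟩ := DR_mod (α := α) hη hP
      exact ⟨N, hN, fun u v huv hl => h u v ((hk u v).2 huv) hl⟩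
    · intro u v huv k
      exact DR_central hη hP hs ((hk u v).2 huv) k

/-- All cosets: independence. -/
theorem independent_of_top {α G : Type} [Finite α] [Group G] [Finite G] (f : α → G)
    (L : Set (List α)) (h : CosetBound f L ⊤) : Independent f L := by
  have := Fintype.ofFinite α
  have := Fintype.ofFinite G
  obtain ⟨C, ρ, hC, h0, h1, hb⟩ := h
  intro g
  refine ⟨C, ρ, hC, h0, h1, fun n => ?_⟩
  have hG : (0 : ℝ) < (Nat.card G : ℝ) := by exact_mod_cast Nat.card_pos
  have h2 : (cnt f L n g : ℝ) - (tot L n : ℝ) / (Nat.card G : ℝ) =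
      (∑ x : G, ((cnt f L n g : ℝ) - cnt f L n x)) / (Nat.card G : ℝ) := by
    rw [Finset.sum_sub_distrib, sum_cnt, Finset.sum_const, Finset.card_univ, nsmul_eq_mul,
      ← Nat.card_eq_fintype_card]
    field_simp
  change |(cnt f L n g : ℝ) - (tot L n : ℝ) / (Nat.card G : ℝ)| ≤ _
  rw [h2, abs_div, abs_of_pos hG, div_le_iff₀ hG]
  refine (Finset.abs_sum_le_sum_abs _ _).trans ?_
  refine (Finset.sum_le_sum (fun x _ => hb n g x (Subgroup.mem_top _))).trans ?_
  rw [Finset.sum_const, Finset.card_univ, nsmul_eq_mul, ← Nat.card_eq_fintype_card, mul_comm]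

/-- Nonabelian simple groups: everything or nothing. -/
theorem simple_coset {α G : Type} [Finite α] [Group G] [Finite G] [IsSimpleGroup G]
    (f : α → G) (hG : ∃ a b : G, a * b ≠ b * a)
    (hs : Function.Surjective (fun w : List α => (w.map f).prod)) (e : GRE α) (h : ℕ)
    (he : e.height ≤ h) :
    (∀ S : Set G, HL h {w : List α | (w.map f).prod ∈ S}) ∨ CosetBound f e.lang ⊤ := by
  obtain ⟨R, hN, hc, _, hz⟩ := regular_dichotomy f hs e
  rcases hN.eq_bot_or_eq_top with hR | hR
  · left
    intro S
    have hcen : Subgroup.center G = ⊥ := by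
      rcases (inferInstance : (Subgroup.center G).Normal).eq_bot_or_eq_top with h1 | h1
      · exact h1
      · exfalso
        obtain ⟨a, b, hab⟩ := hG
        apply hab
        have ha : a ∈ Subgroup.center G := by rw [h1]; exact Subgroup.mem_top a
        exact ((Subgroup.mem_center_iff.1 ha) b).symm
    apply bool_quot h [e] (by simpa using he)
    intro u v huv
    have h2 := hz u v (huv e (by simp))
    have h3 : (u.map f).prod * ((v.map f).prod)⁻¹ ∈ Subgroup.center G := by
      rw [Subgroup.mem_center_iff]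
      intro k
      have h4 := h2 k
      rw [hR, Subgroup.mem_bot] at h4
      have h5 := mul_inv_eq_one.1 h4
      have h6 := mul_inv_eq_iff_eq_mul.1 h5
      exact h6.symm
    rw [hcen, Subgroup.mem_bot] at h3
    have h4 := mul_inv_eq_one.1 h3
    change (u.map f).prod ∈ S ↔ (v.map f).prod ∈ S
    rw [h4]
  · right
    rw [hR] at hc
    exact hc

theorem simple_dichotomy {α G : Type} [Finite α] [Group G] [Finite G] [IsSimpleGroup G]
    (f : α → G) (hG : ∃ a b : G, a * b ≠ b * a)
    (hs : Function.Surjective (fun w : List α => (w.map f).prod)) (e : GRE α) (h : ℕ)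
    (he : e.height ≤ h) :
    (∀ S : Set G, HL h {w : List α | (w.map f).prod ∈ S}) ∨ Independent f e.lang :=
  (simple_coset f hG hs e h he).imp id (independent_of_top f e.lang)

end Vale.Agent.P329.R2.H446
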